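import Vale.Agent.P146.R3.H432.Nrm

/-!
# P146: the diagonal of `W` is negligible; polynomials of `W`
-/

open MeasureTheory ProbabilityTheory Matrix Filter Topology Polynomial
open scoped Matrix.Norms.L2Operator

namespace Vale.Agent.P146.R3.H432

open Vale.Agent.P146.Sk Vale.Agent.P157.Lv Vale.Agent.P146.R2.H432

/-- the diagonal entries, normalized -/
noncomputable def dgv (N : ℕ) (ω : Om) : Fin N → ℝ := fun i => √2 * ω (i, i) / √(N : ℝ)

lemma Wm_eq (N : ℕ) (ω : Om) :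
    Wm N (zz N ω) = WW (gg N ω) + Matrix.diagonal (dgv N ω) := by
  have h2 : √(2 * (N : ℝ)) = √2 * √(N : ℝ) := Real.sqrt_mul (by norm_num) _
  have h3 : √2 * √2 = (2 : ℝ) := Real.mul_self_sqrt (by norm_num)
  have h4 : √2 ≠ (0 : ℝ) := by positivity
  ext i j
  rw [Matrix.add_apply]
  show (ω (i, j) + ω (j, i)) / √(2 * (N : ℝ)) =
    Vale.Agent.P150.gsym (gg N ω) i j / Real.sqrt N + Matrix.diagonal (dgv N ω) i j
  unfold Vale.Agent.P150.gsym
  rcases lt_trichotomy i j with h | h | h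
  · rw [dif_pos h, Matrix.diagonal_apply_ne _ h.ne, add_zero, h2]
    simp only [gg, sy, zz]
    rw [div_div]
  · subst h
    rw [dif_neg (lt_irrefl _), dif_neg (lt_irrefl _), Matrix.diagonal_apply_eq, h2]
    simp only [dgv]
    rcases Nat.eq_zero_or_pos N with hN | hN
    · subst hN; exact i.elim0
    have h5 : √(N : ℝ) ≠ 0 := by positivity
    rw [zero_div, zero_add, div_eq_div_iff (by positivity) h5]
    linear_combination (-ω (i, i) * √(N : ℝ)) * h3
  · rw [dif_neg h.not_gt, dif_pos h, Matrix.diagonal_apply_ne _ h.ne', add_zero, h2]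
    simp only [gg, sy, zz]
    rw [div_div, add_comm (ω (↑j, ↑i))]

/-- fourth moments of the entries -/
lemma int_four (n : ℕ) : Integrable (fun ω : Om => ω (n, n) ^ 4) Qm ∧
    ∫ ω, ω (n, n) ^ 4 ∂Qm ≤ 16 := by
  classical
  let e : Ix (n + 1) := (Fin.last n, Fin.last n)
  have h1 : (fun ω : Om => ω (n, n) ^ 4) = fun ω => (fun z : Ix (n + 1) → ℝ => z e ^ 4)
      (zz (n + 1) ω) := by
    funext ω
    simp [zz, e]
  have hm : Measurable fun z : Ix (n + 1) → ℝ => z e ^ 4 := (measurable_pi_apply e).pow_const 4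
  have h2 : Integrable (fun z : Ix (n + 1) → ℝ => z e ^ 4) (gI (Ix (n + 1))) :=
    ((EG.coord (ι := Ix (n + 1)) e).pow 4).integrable
  constructor
  · rw [h1]
    rw [← map_zz] at h2
    exact h2.comp_measurable (measurable_zz _)
  · have h4 : ∫ ω, (fun z : Ix (n + 1) → ℝ => z e ^ 4) (zz (n + 1) ω) ∂Qm =
        ∫ z, z e ^ 4 ∂(gI (Ix (n + 1))) := by
      rw [← map_zz]
      refine (integral_map (μ := Qm) (φ := zz (n + 1)) (f := fun z : Ix (n + 1) → ℝ => z e ^ 4)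
        (measurable_zz _).aemeasurable ?_).symm
      exact hm.aestronglyMeasurable
    rw [h1, h4]
    have h3 := int_even e 2
    refine le_trans (le_of_eq ?_) (h3.trans (le_of_eq ?_))
    · rfl
    · norm_num

lemma diag_mea (n : ℕ) : Measurable fun ω : Om => ω (n, n) ^ 2 / ((n : ℝ) + 1) := by
  have h0 : Measurable fun ω : Om => ω (n, n) := measurable_pi_apply ((n, n) : ℕ × ℕ)
  have h1 : Measurable fun ω : Om => ω (n, n) ^ 2 := h0.pow_const 2
  exact h1.div_const _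

lemma diag_sq (n : ℕ) (ω : Om) : (ω (n, n) ^ 2 / ((n : ℝ) + 1)) ^ 2 =
    ω (n, n) ^ 4 / ((n : ℝ) + 1) ^ 2 := by
  generalize ω (n, n) = a
  generalize (n : ℝ) + 1 = b
  rw [div_pow, ← pow_mul]

lemma diag_int (n : ℕ) : Integrable (fun ω : Om => (ω (n, n) ^ 2 / ((n : ℝ) + 1)) ^ 2) Qm := by
  have h := (int_four n).1.div_const (((n : ℝ) + 1) ^ 2)
  have e : (fun ω : Om => (ω (n, n) ^ 2 / ((n : ℝ) + 1)) ^ 2) =
      fun ω : Om => ω (n, n) ^ 4 / ((n : ℝ) + 1) ^ 2 := funext fun ω => diag_sq n ω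
  rw [e]
  exact h

lemma diag_sum : Summable fun n : ℕ => 16 / ((n : ℝ) + 1) ^ 2 := by
  have h := (summable_nat_add_iff 1).2 (Real.summable_one_div_nat_pow.2 (show 1 < 2 by norm_num))
  refine (h.mul_left 16).congr fun n => ?_
  push_cast
  ring

lemma diag_bd (n : ℕ) : ∫ ω : Om, (ω (n, n) ^ 2 / ((n : ℝ) + 1)) ^ 2 ∂Qm ≤
    16 / ((n : ℝ) + 1) ^ 2 := by
  have e : (fun ω : Om => (ω (n, n) ^ 2 / ((n : ℝ) + 1)) ^ 2) =
      fun ω : Om => ω (n, n) ^ 4 / ((n : ℝ) + 1) ^ 2 := funext fun ω => diag_sq n ω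
  rw [e, integral_div]
  exact div_le_div_of_nonneg_right (int_four n).2 (by positivity)

/-- the squares of the diagonal entries, normalized -/
noncomputable def dsq (n : ℕ) (ω : Om) : ℝ := ω (n, n) ^ 2 / ((n : ℝ) + 1)

lemma ae_diag' : ∀ᵐ ω ∂Qm, Tendsto (fun n : ℕ => dsq n ω) atTop (𝓝 0) := by
  have h1 : ∀ n, Measurable (dsq n) := diag_mea
  have h2 : ∀ n, Integrable (fun ω => dsq n ω ^ 2) Qm := diag_int
  have h3 : ∀ n, ∫ ω, dsq n ω ^ 2 ∂Qm ≤ 16 / ((n : ℝ) + 1) ^ 2 := diag_bd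
  have h4 : ∀ᶠ n in atTop, ∫ ω, dsq n ω ^ 2 ∂Qm ≤ (fun n : ℕ => 16 / ((n : ℝ) + 1) ^ 2) n :=
    Eventually.of_forall h3
  have h := ae_tendsto_of_int_sq dsq h1 h2 (fun n : ℕ => 16 / ((n : ℝ) + 1) ^ 2) diag_sum h4
  exact h

lemma ae_diag : ∀ᵐ ω ∂Qm, Tendsto (fun n : ℕ => ω (n, n) ^ 2 / ((n : ℝ) + 1)) atTop (𝓝 0) := by
  filter_upwards [ae_diag'] with ω h
  exact h

/-- maxima of sequences of size `o(√i)` -/
lemma max_small {a : ℕ → ℝ} (h : Tendsto (fun n : ℕ => a n ^ 2 / ((n : ℝ) + 1)) atTop (𝓝 0))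
    {ε : ℝ} (hε : 0 < ε) : ∀ᶠ N : ℕ in atTop, ∀ i < N, |a i| ≤ ε * √(N : ℝ) := by
  obtain ⟨I, hI⟩ := eventually_atTop.1 (h.eventually_lt_const (show 0 < ε ^ 2 by positivity))
  have h1 : Tendsto (fun N : ℕ => ε * √(N : ℝ)) atTop atTop :=
    (Real.tendsto_sqrt_atTop.comp tendsto_natCast_atTop_atTop).const_mul_atTop hε
  filter_upwards [h1.eventually_ge_atTop (∑ i ∈ Finset.range I, |a i|)] with N hN i hi
  by_cases hiI : i < I
  · refine le_trans ?_ hN
    exact Finset.single_le_sum (f := fun i => |a i|) (fun _ _ => abs_nonneg _)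
      (Finset.mem_range.2 hiI)
  · have h2 := hI i (not_lt.1 hiI)
    rw [div_lt_iff₀ (by positivity)] at h2
    refine abs_le_of_sq_le_sq ?_ (by positivity)
    rw [mul_pow, Real.sq_sqrt (Nat.cast_nonneg N)]
    have h3 : (i : ℝ) + 1 ≤ N := by exact_mod_cast hi
    have h4 : 0 < ε ^ 2 := by positivity
    nlinarith

/-- the diagonal part tends to zero in norm -/
theorem ae_norm_diag : ∀ᵐ ω ∂Qm,
    Tendsto (fun N => ‖Wm N (zz N ω) - WW (gg N ω)‖) atTop (𝓝 0) := by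
  filter_upwards [ae_diag] with ω hω
  rw [Metric.tendsto_atTop]
  intro ε hε
  obtain ⟨M, hM⟩ := eventually_atTop.1 (max_small hω (show 0 < ε / 4 by positivity))
  refine ⟨M + 1, fun N hN => ?_⟩
  have hN0 : 0 < N := by omega
  have h1 := hM N (by omega)
  have h2 : ‖Wm N (zz N ω) - WW (gg N ω)‖ ≤ ε / 2 := by
    rw [Wm_eq, add_sub_cancel_left, Matrix.l2_opNorm_diagonal]
    refine (pi_norm_le_iff_of_nonneg (by positivity)).2 fun i => ?_
    have hs : 0 < √(N : ℝ) := by positivity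
    have h3 := h1 i i.2
    have h4 : √2 ≤ (2 : ℝ) := by
      rw [show (2 : ℝ) = √4 by rw [show (4 : ℝ) = 2 ^ 2 by norm_num, Real.sqrt_sq (by norm_num)]]
      exact Real.sqrt_le_sqrt (by norm_num)
    rw [Real.norm_eq_abs, dgv, abs_div, abs_mul, abs_of_pos hs, div_le_iff₀ hs,
      abs_of_nonneg (Real.sqrt_nonneg 2)]
    have h5 : √2 * |ω (↑i, ↑i)| ≤ 2 * (ε / 4 * √(N : ℝ)) :=
      mul_le_mul h4 h3 (abs_nonneg _) (by norm_num)
    linarith
  rw [dist_zero_right, Real.norm_eq_abs, abs_of_nonneg (norm_nonneg _)]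
  linarith

theorem ae_norm_Wm {ε : ℝ} (hε : 0 < ε) :
    ∀ᵐ ω ∂Qm, ∀ᶠ N in atTop, ‖Wm N (zz N ω)‖ ≤ 2 + ε := by
  filter_upwards [ae_norm_WW (half_pos hε), ae_norm_diag] with ω h1 h2
  filter_upwards [h1, h2.eventually_lt_const (half_pos hε)] with N h3 h4
  have h5 : Wm N (zz N ω) = WW (gg N ω) + (Wm N (zz N ω) - WW (gg N ω)) := by abel
  rw [h5]
  refine (norm_add_le _ _).trans ?_
  linarith

section poly

/-- polynomials are bounded and Lipschitz on balls, uniformly in the dimension -/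
theorem poly_lip (p : ℝ[X]) {R : ℝ} (hR : 0 ≤ R) : ∃ C : ℝ, 0 ≤ C ∧ ∀ (N : ℕ)
    (A B : Matrix (Fin N) (Fin N) ℝ), ‖A‖ ≤ R → ‖B‖ ≤ R →
      ‖aeval A p‖ ≤ C ∧ ‖aeval A p - aeval B p‖ ≤ C * ‖A - B‖ := by
  induction p using Polynomial.induction_on' with
  | add p q hp hq =>
    obtain ⟨C, hC, h1⟩ := hp
    obtain ⟨D, hD, h2⟩ := hq
    refine ⟨C + D, by positivity, fun N A B hA hB => ?_⟩
    obtain ⟨a1, a2⟩ := h1 N A B hA hB
    obtain ⟨b1, b2⟩ := h2 N A B hA hB
    constructor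
    · rw [map_add]
      exact (norm_add_le _ _).trans (add_le_add a1 b1)
    · rw [map_add, map_add, add_sub_add_comm]
      refine (norm_add_le _ _).trans ?_
      rw [add_mul]
      exact add_le_add a2 b2
  | monomial n a =>
    have key : ∀ n : ℕ, ∀ (N : ℕ) (A B : Matrix (Fin N) (Fin N) ℝ), ‖A‖ ≤ R → ‖B‖ ≤ R →
        ‖A ^ n‖ ≤ (1 + R) ^ n ∧ ‖A ^ n - B ^ n‖ ≤ n * (1 + R) ^ n * ‖A - B‖ := by
      intro n
      induction n with
      | zero =>
        intro N A B _ _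
        simp only [pow_zero, sub_self, norm_zero]
        exact ⟨norm_one_le, by simp⟩
      | succ n ih =>
        intro N A B hA hB
        obtain ⟨h1, h2⟩ := ih N A B hA hB
        obtain ⟨h1', -⟩ := ih N B A hB hA
        have hR1 : (0 : ℝ) ≤ (1 + R) ^ n := by positivity
        constructor
        · rw [pow_succ, pow_succ]
          refine (norm_mul_le _ _).trans ?_
          exact mul_le_mul h1 (by linarith) (norm_nonneg _) hR1
        · have e : A ^ (n + 1) - B ^ (n + 1) = (A ^ n - B ^ n) * A + B ^ n * (A - B) := by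
            rw [pow_succ, pow_succ]
            noncomm_ring
          rw [e]
          refine (norm_add_le _ _).trans ?_
          have h3 := (norm_mul_le (A ^ n - B ^ n) A).trans
            (mul_le_mul h2 hA (norm_nonneg _) (by positivity))
          have h4 := (norm_mul_le (B ^ n) (A - B)).trans
            (mul_le_mul_of_nonneg_right h1' (norm_nonneg _))
          refine (add_le_add h3 h4).trans ?_
          rw [pow_succ]
          push_cast
          have h5 : 0 ≤ (1 + R) ^ n * ‖A - B‖ := by positivity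
          nlinarith [mul_nonneg (Nat.cast_nonneg (α := ℝ) n) h5, mul_nonneg hR h5]
    refine ⟨|a| * ((n + 1) * (1 + R) ^ n), by positivity, fun N A B hA hB => ?_⟩
    obtain ⟨h1, h2⟩ := key n N A B hA hB
    have hR1 : (0 : ℝ) ≤ (1 + R) ^ n := by positivity
    rw [aeval_monomial, aeval_monomial, ← Algebra.smul_def, ← Algebra.smul_def, ← smul_sub,
      norm_smul, norm_smul, Real.norm_eq_abs]
    constructor
    · refine mul_le_mul_of_nonneg_left (h1.trans ?_) (abs_nonneg a)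
      nlinarith [mul_nonneg (Nat.cast_nonneg (α := ℝ) n) hR1]
    · rw [mul_assoc]
      refine mul_le_mul_of_nonneg_left (h2.trans ?_) (abs_nonneg a)
      refine mul_le_mul_of_nonneg_right ?_ (norm_nonneg _)
      nlinarith [mul_nonneg (Nat.cast_nonneg (α := ℝ) n) hR1]

/-- the transfer between the matrices with and without diagonal -/
theorem ae_poly_diff (p : ℝ[X]) : ∀ᵐ ω ∂Qm,
    Tendsto (fun N => ‖aeval (Wm N (zz N ω)) p - aeval (WW (gg N ω)) p‖) atTop (𝓝 0) := by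
  obtain ⟨C, hC, h⟩ := poly_lip p (show (0 : ℝ) ≤ 3 by norm_num)
  filter_upwards [ae_norm_WW one_pos, ae_norm_Wm one_pos, ae_norm_diag] with ω h1 h2 h3
  have h4 := h3.const_mul C
  rw [mul_zero] at h4
  refine squeeze_zero' (Eventually.of_forall fun N => norm_nonneg _) ?_ h4
  filter_upwards [h1, h2] with N h5 h6
  exact (h N _ _ (by linarith) (by linarith)).2

lemma cheb_eq_aeval {N : ℕ} (A : Matrix (Fin N) (Fin N) ℝ) (k : ℕ) :
    cheb k A = aeval A (Sp k) := by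
  have key : cheb k A = aeval A (Sp k) ∧ cheb (k + 1) A = aeval A (Sp (k + 1)) := by
    induction k with
    | zero => simp [cheb, Sp]
    | succ k ih =>
      refine ⟨ih.2, ?_⟩
      show A * cheb (k + 1) A - cheb k A = _
      rw [Sp, map_sub, map_mul, aeval_X, ih.1, ih.2]
  exact key.1

/-- quadratic forms on the cube -/
lemma abs_quad_le {N : ℕ} (D : Matrix (Fin N) (Fin N) ℝ) {σ : Fin N → ℝ}
    (hσ : ∀ i, σ i = -1 ∨ σ i = 1) : |σ ⬝ᵥ (D *ᵥ σ)| ≤ ‖D‖ * N := by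
  have h := abs_bil_le D σ σ
  have h1 : ∑ i, σ i ^ 2 = N := by
    have : ∀ i, σ i ^ 2 = 1 := fun i => by rcases hσ i with h | h <;> rw [h] <;> norm_num
    simp [this]
  rw [h1, Real.mul_self_sqrt (Nat.cast_nonneg N)] at h
  have e : σ ⬝ᵥ (D *ᵥ σ) = ∑ i, ∑ j, σ i * D i j * σ j := by
    simp only [dotProduct, mulVec, Finset.mul_sum]
    refine Finset.sum_congr rfl fun i _ => Finset.sum_congr rfl fun j _ => ?_
    ring
  rw [e]
  exact h

/-- (C') the quadratic forms of `U_k(W)` with and without diagonal -/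
theorem ae_transfer (k : ℕ) : ∀ᵐ ω ∂Qm, ∀ ε : ℝ, 0 < ε → ∀ᶠ N in atTop,
    ∀ σ : Fin N → ℝ, (∀ i, σ i = -1 ∨ σ i = 1) →
      |σ ⬝ᵥ ((cheb k (Wm N (zz N ω)) - cheb k (WW (gg N ω))) *ᵥ σ)| ≤ ε * N := by
  filter_upwards [ae_poly_diff (Sp k)] with ω h ε hε
  filter_upwards [h.eventually_lt_const hε] with N hN σ hσ
  rw [cheb_eq_aeval, cheb_eq_aeval]
  exact (abs_quad_le _ hσ).trans (mul_le_mul_of_nonneg_right hN.le (Nat.cast_nonneg N))

end poly

end Vale.Agent.P146.R3.H432
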