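import Vale.Agent.P146.R3.H432.Ens
import Vale.Agent.P146.R3.H49.Supp
import Vale.Agent.P146.R3.H49.Orth

/-!
# P146: the ensemble `b W + 2 s U_k(W)`
-/

open MeasureTheory ProbabilityTheory Matrix Filter Topology Polynomial
open scoped Matrix.Norms.L2Operator

namespace Vale.Agent.P146.R3.H432

open Vale.Agent.P146.Sk Vale.Agent.P157.Lv Vale.Agent.P146.R2.H432
open Vale.Agent.P166 Vale.Agent.P166.H295

lemma eval_Sp (k : ℕ) (x : ℝ) : (Sp k).eval x = chR k x := by
  have key : (Sp k).eval x = chR k x ∧ (Sp (k + 1)).eval x = chR (k + 1) x := by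
    induction k with
    | zero => simp [Sp]
    | succ k ih =>
      refine ⟨ih.2, ?_⟩
      rw [Sp, chR_succ_succ, eval_sub, eval_mul, eval_X, ih.1, ih.2]
  exact key.1

/-- the limits of the normalized traces are the integrals against the semicircle law -/
theorem Lam_eq (q : ℝ[X]) : Lam q = ∫ x, q.eval x ∂sc := by
  have hq := mem_span_Sp q
  induction hq using Submodule.span_induction with
  | mem x hx =>
    obtain ⟨p, rfl⟩ := hx
    simp only [eval_Sp]
    rw [Lam_Sp, H49.integral_chR]
  | zero =>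
    have h0 : Lam 0 = 0 := by
      have := Lam_C_mul 0 0
      simpa using this
    rw [h0]
    simp
  | add x y _ _ hx hy =>
    rw [Lam_add, hx, hy, ← integral_add (H49.integrable_continuous_sc x.continuous)
      (H49.integrable_continuous_sc y.continuous)]
    simp only [eval_add]
  | smul c x _ hx =>
    rw [smul_eq_C_mul, Lam_C_mul, hx, ← integral_const_mul]
    simp only [eval_mul, eval_C]

/-- the polynomial `b X + 2 s U_k` -/
noncomputable def hp (b : ℝ) (k : ℕ) (s : ℝ) : ℝ[X] := C b * X + C (2 * s) * Sp k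

lemma eval_hp (b : ℝ) (k : ℕ) (s x : ℝ) : (hp b k s).eval x = hs b k s x := by
  rw [hp, hs, eval_add, eval_mul, eval_mul, eval_C, eval_C, eval_X, eval_Sp]

lemma map_hp (b : ℝ) (k : ℕ) (s : ℝ) : sc.map (fun x => (hp b k s).eval x) = muS b k s := by
  rw [muS]
  congr 1
  funext x
  exact eval_hp b k s x

lemma aeval_hp {N : ℕ} (b : ℝ) (k : ℕ) (s : ℝ) (A : Matrix (Fin N) (Fin N) ℝ) :
    aeval A (hp b k s) = b • A + (2 * s) • cheb k A := by
  rw [hp, map_add, map_mul, map_mul, aeval_C, aeval_C, aeval_X, cheb_eq_aeval,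
    ← Algebra.smul_def, ← Algebra.smul_def]

/-- (B) the matrices `b W + 2 s U_k(W)` form an invariant ensemble with limiting law `muS b k s` -/
theorem ensemble (b : ℝ) (k : ℕ) (s : ℝ) :
    InvariantEnsemble Qm
      (fun N ω => b • Wm N (zz N ω) + (2 * s) • cheb k (Wm N (zz N ω))) (muS b k s) := by
  have h := ensemble_poly sc H49.sc_ae Lam_eq (hp b k s) (by
    rw [map_hp, H49.support_muS]
    refine Set.image_congr fun x _ => ?_
    exact (eval_hp b k s x).symm)
  rw [map_hp] at h
  simp only [aeval_hp] at h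
  exact h

end Vale.Agent.P146.R3.H432
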