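import Mathlib
import Vale.Agent.P146.Defs
import Vale.Agent.P146.H605.Rot
import Vale.Agent.P146.Bdl.B2

/-!
# P146: one infinite array of standard Gaussian variables for all sizes `N`
-/

open MeasureTheory ProbabilityTheory Matrix

namespace Vale.Agent.P146.R3.H432

open Vale.Agent.P146.Sk Vale.Agent.P157.Lv

/-- the sample space -/
abbrev Om : Type := ℕ × ℕ → ℝ

/-- the law of an infinite array of independent standard Gaussian variables -/
noncomputable def Qm : Measure Om := Measure.infinitePi fun _ => gaussianReal 0 1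

instance : IsProbabilityMeasure Qm := by unfold Qm; infer_instance

/-- the restriction of the array to `N × N` -/
def zz (N : ℕ) (ω : Om) : Ix N → ℝ := fun p => ω (p.1, p.2)

/-- the symmetrization `(z_ij + z_ji)/√2`, `i < j` -/
noncomputable def sy (N : ℕ) (z : Ix N → ℝ) : Pair N → ℝ :=
  fun e => (z (e.1.1, e.1.2) + z (e.1.2, e.1.1)) / √2

/-- the symmetrized array -/
noncomputable def gg (N : ℕ) (ω : Om) : Pair N → ℝ := sy N (zz N ω)

lemma measurable_zz (N : ℕ) : Measurable (zz N) :=
  measurable_pi_iff.2 fun _ => measurable_pi_apply _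

lemma measurable_sy (N : ℕ) : Measurable (sy N) :=
  measurable_pi_iff.2 fun e => by
    have h1 : Measurable fun z : Ix N → ℝ => z (e.1.1, e.1.2) := measurable_pi_apply _
    have h2 : Measurable fun z : Ix N → ℝ => z (e.1.2, e.1.1) := measurable_pi_apply _
    exact (h1.add h2).div_const _

lemma measurable_gg (N : ℕ) : Measurable (gg N) := (measurable_sy N).comp (measurable_zz N)

theorem map_zz (N : ℕ) : Qm.map (zz N) = gI (Ix N) := by
  have h1 : iIndepFun (fun (p : ℕ × ℕ) (ω : Om) => ω p) Qm :=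
    iIndepFun_infinitePi (X := fun _ x => x) (fun _ => measurable_id)
  let φ : Ix N → ℕ × ℕ := fun p => (p.1, p.2)
  have hφ : Function.Injective φ := by
    intro p q h
    simp only [φ, Prod.mk.injEq] at h
    exact Prod.ext (Fin.ext h.1) (Fin.ext h.2)
  have h2 : iIndepFun (fun (p : Ix N) (ω : Om) => ω (φ p)) Qm := h1.precomp hφ
  have h3 := (iIndepFun_iff_map_fun_eq_pi_map (μ := Qm)
    (f := fun (p : Ix N) (ω : Om) => ω (φ p))
    (fun p => (measurable_pi_apply _).aemeasurable)).1 h2
  have h4 : ∀ p : Ix N, Qm.map (fun ω : Om => ω (φ p)) = gaussianReal 0 1 := fun p =>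
    (measurePreserving_eval_infinitePi (fun _ : ℕ × ℕ => gaussianReal 0 1) (φ p)).map_eq
  simp only [h4] at h3
  exact h3

section linear

variable {ι κ : Type*} [Fintype ι] [Fintype κ] [DecidableEq ι] [DecidableEq κ]

/-- image of a standard Gaussian vector under a coisometry -/
theorem map_std (T : (ι → ℝ) →L[ℝ] (κ → ℝ))
    (hT : ∀ L : StrongDual ℝ (κ → ℝ), ∑ i, (L (T (Pi.single i 1))) ^ 2 =
      ∑ k, (L (Pi.single k 1)) ^ 2) :
    (Measure.pi fun _ : ι => gaussianReal 0 1).map T =
      Measure.pi fun _ : κ => gaussianReal 0 1 := by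
  refine Measure.ext_of_charFunDual ?_
  ext L
  rw [charFunDual_map, H605.charFunDual_std_pi, H605.charFunDual_std_pi]
  congr 1
  have h := hT L
  have h2 : (∑ i, (((L.comp T) (Pi.single i 1) : ℝ) : ℂ) ^ 2) =
      ∑ k, ((L (Pi.single k 1) : ℝ) : ℂ) ^ 2 := by
    simp only [ContinuousLinearMap.comp_apply]
    exact_mod_cast congrArg (fun x : ℝ => (x : ℂ)) h
  rw [h2]

/-- a linear functional in coordinates -/
lemma dual_apply (L : StrongDual ℝ (κ → ℝ)) (v : κ → ℝ) :
    L v = ∑ k, v k * L (Pi.single k 1) := by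
  conv_lhs => rw [← Finset.univ_sum_single v, map_sum]
  refine Finset.sum_congr rfl fun k _ => ?_
  have : Pi.single k (v k) = v k • (Pi.single k 1 : κ → ℝ) := by
    ext j
    by_cases hj : j = k
    · subst hj; simp
    · simp [Pi.single_eq_of_ne hj]
  rw [this, map_smul, smul_eq_mul]

end linear

/-- `sy` as a linear map -/
noncomputable def syL (N : ℕ) : (Ix N → ℝ) →L[ℝ] (Pair N → ℝ) :=
  LinearMap.toContinuousLinearMap
    { toFun := sy N
      map_add' := fun x y => by
        funext e
        simp only [sy, Pi.add_apply]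
        ring
      map_smul' := fun c x => by
        funext e
        simp only [sy, Pi.smul_apply, smul_eq_mul, RingHom.id_apply]
        ring }

lemma syL_apply (N : ℕ) (z : Ix N → ℝ) : syL N z = sy N z := rfl

lemma sum_pair {N : ℕ} (F : Ix N → ℝ) (h0 : ∀ i, F (i, i) = 0) (hs : ∀ i j, F (i, j) = F (j, i)) :
    ∑ p : Ix N, F p = 2 * ∑ e : Pair N, F e.1 := by
  classical
  have h1 : ∑ e : Pair N, F e.1 = ∑ p : Ix N, if p.1 < p.2 then F p else 0 := by
    rw [← Finset.sum_filter]
    exact (Finset.sum_subtype (Finset.univ.filter fun p : Ix N => p.1 < p.2)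
      (fun p => by simp) F).symm
  have h2 : ∑ p : Ix N, (if p.1 < p.2 then F p else 0) =
      ∑ p : Ix N, if p.2 < p.1 then F p else 0 := by
    rw [Fintype.sum_prod_type, Fintype.sum_prod_type, Finset.sum_comm]
    refine Finset.sum_congr rfl fun i _ => Finset.sum_congr rfl fun j _ => ?_
    rw [hs j i]
  have h3 : ∑ p : Ix N, F p = ∑ p : Ix N, ((if p.1 < p.2 then F p else 0) +
      if p.2 < p.1 then F p else 0) := by
    refine Finset.sum_congr rfl fun p _ => ?_
    rcases lt_trichotomy p.1 p.2 with h | h | h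
    · simp [h, h.not_gt]
    · have hp : p = (p.1, p.1) := Prod.ext rfl h.symm
      rw [hp]
      simp [h0]
    · simp [h, h.not_gt]
  rw [h3, Finset.sum_add_distrib, ← h2, h1]
  ring

theorem map_sy (N : ℕ) : (gI (Ix N)).map (sy N) = disorder N := by
  classical
  have h : (sy N) = syL N := by funext z; rw [syL_apply]
  rw [h]
  refine map_std (syL N) fun L => ?_
  obtain ⟨a, ha⟩ : ∃ a : Pair N → ℝ, a = fun e => L (Pi.single e 1) := ⟨_, rfl⟩
  let b : Ix N → ℝ := fun p => if h : p.1 < p.2 then a ⟨p, h⟩ else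
    if h : p.2 < p.1 then a ⟨(p.2, p.1), h⟩ else 0
  have h1 : ∀ p : Ix N, L (syL N (Pi.single p 1)) = (√2)⁻¹ * b p := by
    intro p
    rw [dual_apply]
    have h2 : ∀ e : Pair N, syL N (Pi.single p 1) e * L (Pi.single e 1) =
        (√2)⁻¹ * ((if e.1 = p then a e else 0) + if (e.1.2, e.1.1) = p then a e else 0) := by
      intro e
      simp only [syL_apply, sy, ha, Pi.single_apply, Prod.mk.eta]
      split_ifs <;> ring
    simp only [h2]
    rw [← Finset.mul_sum]
    congr 1
    rw [Finset.sum_add_distrib]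
    simp only [b]
    by_cases hp : p.1 < p.2
    · rw [dif_pos hp, Finset.sum_eq_single (⟨p, hp⟩ : Pair N), if_pos rfl]
      · rw [Finset.sum_eq_zero, add_zero]
        intro e _
        rw [if_neg]
        intro h3
        have := e.2
        rw [← h3] at hp
        exact absurd hp this.not_gt
      · intro e _ he
        rw [if_neg]
        intro h3
        exact he (Subtype.ext h3)
      · intro h3
        exact absurd (Finset.mem_univ _) h3
    · rw [dif_neg hp]
      by_cases hq : p.2 < p.1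
      · rw [dif_pos hq, Finset.sum_eq_zero, zero_add,
          Finset.sum_eq_single (⟨(p.2, p.1), hq⟩ : Pair N), if_pos rfl]
        · intro e _ he
          rw [if_neg]
          intro h3
          apply he
          apply Subtype.ext
          subst h3
          rfl
        · intro h3
          exact absurd (Finset.mem_univ _) h3
        · intro e _
          rw [if_neg]
          intro h3
          exact hp (h3 ▸ e.2)
      · rw [dif_neg hq, Finset.sum_eq_zero, Finset.sum_eq_zero, add_zero]
        · intro e _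
          rw [if_neg]
          intro h3
          apply hq
          rw [← h3]
          exact e.2
        · intro e _
          rw [if_neg]
          intro h3
          exact hp (h3 ▸ e.2)
  simp only [h1]
  have h4 : ∀ p : Ix N, ((√2)⁻¹ * b p) ^ 2 = (1 / 2) * b p ^ 2 := by
    intro p
    rw [mul_pow, inv_pow, Real.sq_sqrt (by norm_num)]
    ring
  simp only [h4]
  rw [← Finset.mul_sum, sum_pair (fun p => b p ^ 2)]
  · have h5 : ∀ e : Pair N, b e.1 = L (Pi.single e 1) := by
      intro e
      simp only [b]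
      rw [dif_pos e.2, ha]
    simp only [h5]
    ring
  · intro i
    simp [b]
  · intro i j
    simp only [b]
    rcases lt_trichotomy i j with h | h | h
    · rw [dif_pos h, dif_neg (not_lt.2 h.le), dif_pos h]
    · subst h; rfl
    · rw [dif_neg (not_lt.2 h.le), dif_pos h, dif_pos h]

theorem map_gg (N : ℕ) : Qm.map (gg N) = disorder N := by
  have h : gg N = sy N ∘ zz N := rfl
  rw [h, ← Measure.map_map (measurable_sy N) (measurable_zz N), map_zz, map_sy]

/-- conjugation of the array by an orthogonal matrix -/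
noncomputable def cjL (N : ℕ) (O : Matrix (Fin N) (Fin N) ℝ) : (Ix N → ℝ) →L[ℝ] (Ix N → ℝ) :=
  ContinuousLinearMap.pi fun p =>
    ∑ q : Ix N, (O q.1 p.1 * O q.2 p.2) • ContinuousLinearMap.proj q

lemma cjL_apply (N : ℕ) (O : Matrix (Fin N) (Fin N) ℝ) (z : Ix N → ℝ) (p : Ix N) :
    cjL N O z p = ∑ q : Ix N, O q.1 p.1 * O q.2 p.2 * z q := by
  simp [cjL]

theorem map_cj (N : ℕ) (O : orthogonalGroup (Fin N) ℝ) :
    (gI (Ix N)).map (cjL N O.1) = gI (Ix N) := by
  classical
  refine map_std (cjL N O.1) fun L => ?_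
  obtain ⟨a, ha⟩ : ∃ a : Ix N → ℝ, a = fun e => L (Pi.single e 1) := ⟨_, rfl⟩
  let Am : Matrix (Fin N) (Fin N) ℝ := Matrix.of fun i j => a (i, j)
  have hO : O.1 * O.1ᵀ = 1 := by
    have := (Matrix.mem_orthogonalGroup_iff (Fin N) ℝ).1 O.2
    simpa [Matrix.star_eq_conjTranspose] using this
  have hO2 : O.1ᵀ * O.1 = 1 := by
    have := (Matrix.mem_orthogonalGroup_iff' (Fin N) ℝ).1 O.2
    simpa [Matrix.star_eq_conjTranspose] using this
  have h1 : ∀ q : Ix N, L (cjL N O.1 (Pi.single q 1)) = (O.1 * Am * O.1ᵀ) q.1 q.2 := by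
    intro q
    rw [dual_apply]
    simp only [cjL_apply, Pi.single_apply, mul_ite, mul_one, mul_zero, Finset.sum_ite_eq',
      Finset.mem_univ, if_true]
    rw [Fintype.sum_prod_type]
    simp only [Matrix.mul_apply, Matrix.transpose_apply, Am, Matrix.of_apply, Finset.sum_mul]
    rw [Finset.sum_comm]
    refine Finset.sum_congr rfl fun j _ => Finset.sum_congr rfl fun i _ => ?_
    rw [ha]
    ring
  simp only [h1]
  have h2 : ∀ B : Matrix (Fin N) (Fin N) ℝ, ∑ q : Ix N, B q.1 q.2 ^ 2 = (B * Bᵀ).trace := by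
    intro B
    rw [Fintype.sum_prod_type]
    simp only [Matrix.trace, Matrix.diag, Matrix.mul_apply, Matrix.transpose_apply, sq]
  have h3 : ∑ q : Ix N, L (Pi.single q 1) ^ 2 = (Am * Amᵀ).trace := by
    rw [← h2]
    refine Finset.sum_congr rfl fun q _ => ?_
    simp [Am, ha]
  rw [h3, h2]
  have h4 : (O.1 * Am * O.1ᵀ) * (O.1 * Am * O.1ᵀ)ᵀ = O.1 * (Am * Amᵀ) * O.1ᵀ := by
    rw [Matrix.transpose_mul, Matrix.transpose_mul, Matrix.transpose_transpose]
    calc O.1 * Am * O.1ᵀ * (O.1 * (Amᵀ * O.1ᵀ)) = O.1 * Am * (O.1ᵀ * O.1) * (Amᵀ * O.1ᵀ) := by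
          simp only [Matrix.mul_assoc]
      _ = O.1 * (Am * Amᵀ) * O.1ᵀ := by rw [hO2]; simp only [Matrix.mul_assoc, Matrix.one_mul]
  rw [h4, Matrix.trace_mul_comm, ← Matrix.mul_assoc, hO2, Matrix.one_mul]

/-- conjugation of `W` -/
lemma Wm_cj (N : ℕ) (O : Matrix (Fin N) (Fin N) ℝ) (z : Ix N → ℝ) :
    Wm N (cjL N O z) = Oᵀ * Wm N z * O := by
  ext i j
  simp only [Wm, Matrix.of_apply, cjL_apply, Matrix.mul_apply, Matrix.transpose_apply,
    Finset.sum_mul]
  rw [Fintype.sum_prod_type, Fintype.sum_prod_type]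
  simp only
  have h1 : ∑ x, ∑ y, O x i * O y j * z (x, y) = ∑ x, ∑ y, O y i * O x j * z (y, x) := by
    rw [Finset.sum_comm]
  rw [h1, ← Finset.sum_add_distrib, Finset.sum_div]
  refine Finset.sum_congr rfl fun x _ => ?_
  rw [← Finset.sum_add_distrib, Finset.sum_div]
  refine Finset.sum_congr rfl fun y _ => ?_
  ring

end Vale.Agent.P146.R3.H432
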