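import Vale.Agent.P146.R3.H432.Spec
import Vale.Agent.P146.R3.Def
import Vale.Agent.P166.H295.Defs

/-!
# P146: the polynomials of `W` form an invariant ensemble
-/

open MeasureTheory ProbabilityTheory Matrix Filter Topology Polynomial
open scoped Matrix.Norms.L2Operator

namespace Vale.Agent.P146.R3.H432

open Vale.Agent.P146.Sk Vale.Agent.P157.Lv Vale.Agent.P146.R2.H432
open Vale.Agent.P166 Vale.Agent.P166.H295

/-- the values of a polynomial on slightly larger intervals -/
lemma poly_edge (p : ℝ[X]) {ε : ℝ} (hε : 0 < ε) : ∃ δ : ℝ, 0 < δ ∧ ∀ x : ℝ, |x| ≤ 2 + δ →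
    ∃ y ∈ Set.Icc (-2 : ℝ) 2, |p.eval x - p.eval y| ≤ ε := by
  have h := (isCompact_Icc (a := (-3 : ℝ)) (b := 3)).uniformContinuousOn_of_continuous
    (f := fun x => p.eval x) p.continuous.continuousOn
  obtain ⟨δ, hδ, h1⟩ := Metric.uniformContinuousOn_iff.1 h ε hε
  refine ⟨min 1 (δ / 2), by positivity, fun x hx => ?_⟩
  have hx1 := abs_le.1 hx
  have hm1 : min 1 (δ / 2) ≤ 1 := min_le_left _ _
  have hm2 : min 1 (δ / 2) ≤ δ / 2 := min_le_right _ _
  refine ⟨max (-2) (min x 2), ⟨le_max_left _ _, max_le (by norm_num) (min_le_right _ _)⟩, ?_⟩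
  have h2 : dist x (max (-2) (min x 2)) < δ := by
    rw [Real.dist_eq]
    rcases le_total x (-2) with h | h
    · rw [min_eq_left (by linarith), max_eq_left h, abs_lt]
      constructor <;> linarith
    · rcases le_total x 2 with h' | h'
      · rw [min_eq_left h', max_eq_right h, sub_self, abs_zero]
        exact hδ
      · rw [min_eq_right h', max_eq_right (by norm_num), abs_lt]
        constructor <;> linarith
  have h3 := h1 x ⟨by linarith, by linarith⟩ (max (-2) (min x 2))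
    ⟨le_trans (by norm_num) (le_max_left _ _),
      (max_le (by norm_num) (min_le_right _ _)).trans (by norm_num)⟩ h2
  rw [Real.dist_eq] at h3
  exact h3.le

/-- the eigenvalues of the polynomials of `W` are almost surely admissible -/
theorem admissible_poly (ν : Measure ℝ) [IsProbabilityMeasure ν]
    (hν : ∀ᵐ x ∂ν, x ∈ Set.Icc (-2 : ℝ) 2) (hmom : ∀ q : ℝ[X], Lam q = ∫ x, q.eval x ∂ν) (p : ℝ[X])
    (hs : (ν.map fun x => p.eval x).support = (fun x => p.eval x) '' Set.Icc (-2 : ℝ) 2) :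
    ∀ᵐ ω ∂Qm, Admissible (fun N i => p.eval (ew N (zz N ω) i)) (ν.map fun x => p.eval x) := by
  have hp : Measurable fun x => p.eval x := p.continuous.measurable
  have hpm : IsProbabilityMeasure (ν.map fun x => p.eval x) :=
    Measure.isProbabilityMeasure_map hp.aemeasurable
  have hcomp : IsCompact (ν.map fun x => p.eval x).support := by
    rw [hs]
    exact isCompact_Icc.image p.continuous
  have hne : (ν.map fun x => p.eval x).support.Nonempty := by
    rw [hs]
    exact ⟨_, ⟨0, ⟨by norm_num, by norm_num⟩, rfl⟩⟩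
  have hnorm : ∀ᵐ ω ∂Qm, ∀ n : ℕ, ∀ᶠ N in atTop, ‖Wm N (zz N ω)‖ ≤ 2 + 1 / ((n : ℝ) + 1) :=
    ae_all_iff.2 fun n => ae_norm_Wm (by positivity)
  filter_upwards [ae_tp, hnorm] with ω h1 h2
  have h3 : ∀ ε : ℝ, 0 < ε → ∀ᶠ N in atTop, ∀ i, |ew N (zz N ω) i| ≤ 2 + ε := by
    intro ε hε
    obtain ⟨n, hn⟩ := exists_nat_one_div_lt hε
    filter_upwards [h2 n] with N hN i
    exact (ew_le_norm _ i).trans (hN.trans (by linarith))
  have h4 : ∀ q : ℝ[X], Tendsto (fun N : ℕ => (1 / (N : ℝ)) * ∑ i, q.eval (ew N (zz N ω) i)) atTop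
      (𝓝 (∫ x, q.eval x ∂ν)) := by
    intro q
    rw [← hmom]
    refine (h1 q).congr fun N => ?_
    rw [tp_eq_sum, one_div, div_eq_inv_mul]
  have h5 : ∀ f : ℝ → ℝ, Continuous f →
      Tendsto (fun N : ℕ => (1 / (N : ℝ)) * ∑ i, f (ew N (zz N ω) i)) atTop
        (𝓝 (∫ x, f x ∂ν)) := by
    intro f hf
    refine weak_of_moments (R := 3) ?_ ?_ h4 hf
    · filter_upwards [hν] with x hx
      exact ⟨by linarith [hx.1], by linarith [hx.2]⟩
    · filter_upwards [h3 1 one_pos] with N hN i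
      exact (hN i).trans (by norm_num)
  have hw : ∀ f : BoundedContinuousFunction ℝ ℝ,
      Tendsto (fun N : ℕ => (1 / (N : ℝ)) * ∑ i, f (p.eval (ew N (zz N ω) i))) atTop
        (𝓝 (∫ x, f x ∂(ν.map fun x => p.eval x))) := by
    intro f
    rw [integral_map hp.aemeasurable f.continuous.aestronglyMeasurable]
    exact h5 (fun x => f (p.eval x)) (f.continuous.comp p.continuous)
  refine ⟨hw, ?_, ?_⟩
  · refine inf_conv hw (hcomp.sInf_mem hne) fun ε hε => ?_
    obtain ⟨δ, hδ, h6⟩ := poly_edge p hε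
    filter_upwards [h3 δ hδ] with N hN i
    obtain ⟨y, hy, h7⟩ := h6 _ (hN i)
    have h8 : sInf (ν.map fun x => p.eval x).support ≤ p.eval y :=
      csInf_le hcomp.bddBelow (by rw [hs]; exact ⟨y, hy, rfl⟩)
    have h9 := abs_le.1 h7
    linarith
  · refine sup_conv hw (hcomp.sSup_mem hne) fun ε hε => ?_
    obtain ⟨δ, hδ, h6⟩ := poly_edge p hε
    filter_upwards [h3 δ hδ] with N hN i
    obtain ⟨y, hy, h7⟩ := h6 _ (hN i)
    have h8 : p.eval y ≤ sSup (ν.map fun x => p.eval x).support :=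
      le_csSup hcomp.bddAbove (by rw [hs]; exact ⟨y, hy, rfl⟩)
    have h9 := abs_le.1 h7
    linarith

/-- the polynomials of `W` form an invariant ensemble -/
theorem ensemble_poly (ν : Measure ℝ) [IsProbabilityMeasure ν]
    (hν : ∀ᵐ x ∂ν, x ∈ Set.Icc (-2 : ℝ) 2) (hmom : ∀ q : ℝ[X], Lam q = ∫ x, q.eval x ∂ν) (p : ℝ[X])
    (hs : (ν.map fun x => p.eval x).support = (fun x => p.eval x) '' Set.Icc (-2 : ℝ) 2) :
    InvariantEnsemble Qm (fun N ω => aeval (Wm N (zz N ω)) p) (ν.map fun x => p.eval x) where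
  meas := fun N i j => (measurable_entry N p i j).comp (measurable_zz N)
  invariant := fun N O => invariant_poly p N O
  spectrum := by
    filter_upwards [admissible_poly ν hν hmom p hs] with ω hω
    exact ⟨_, hω, fun N => spec_poly (zz N ω) p⟩

end Vale.Agent.P146.R3.H432
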