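import Vale.Agent.P146.R3.H432.Dia

/-!
# P146: almost sure convergence of the normalized traces of polynomials of `W`
-/

open MeasureTheory ProbabilityTheory Matrix Filter Topology Polynomial
open scoped Matrix.Norms.L2Operator

namespace Vale.Agent.P146.R3.H432

open Vale.Agent.P146.Sk Vale.Agent.P157.Lv Vale.Agent.P146.R2.H432

lemma int_zz {N : ℕ} {f : (Ix N → ℝ) → ℝ} (hf : EG f) :
    Integrable (fun ω => f (zz N ω)) Qm ∧ ∫ ω, f (zz N ω) ∂Qm = ∫ z, f z ∂(gI (Ix N)) := by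
  have h : Integrable f (gI (Ix N)) := hf.integrable
  have h2 : ∫ ω, f (zz N ω) ∂Qm = ∫ z, f z ∂(Qm.map (zz N)) :=
    (integral_map (measurable_zz N).aemeasurable hf.meas.aestronglyMeasurable).symm
  rw [map_zz] at h2
  refine ⟨?_, h2⟩
  rw [← map_zz] at h
  exact h.comp_measurable (measurable_zz N)

/-- the centred normalized trace -/
noncomputable def ctp (p N : ℕ) (z : Ix N → ℝ) : ℝ :=
  tp N (Sp p) z - ∫ w, tp N (Sp p) w ∂(gI (Ix N))

lemma eg_ctp (p N : ℕ) : EG (ctp p N) := (eg_tp (Sp p)).sub (EG.const _)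

theorem ae_ctp (p : ℕ) : ∀ᵐ ω ∂Qm, Tendsto (fun N => ctp p N (zz N ω)) atTop (𝓝 0) := by
  obtain ⟨C, hC, h⟩ := var_tp p
  have h1 : ∀ N, Measurable fun ω => ctp p N (zz N ω) := fun N =>
    (eg_ctp p N).meas.comp (measurable_zz N)
  have h2 : ∀ N, Integrable (fun ω => ctp p N (zz N ω) ^ 2) Qm := fun N =>
    (int_zz ((eg_ctp p N).pow 2)).1
  have h3 : Summable fun N : ℕ => C / (N : ℝ) ^ 2 := by
    have := (Real.summable_one_div_nat_pow.2 (show 1 < 2 by norm_num)).mul_left C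
    refine this.congr fun n => ?_
    ring
  have h4 : ∀ᶠ N : ℕ in atTop, ∫ ω, ctp p N (zz N ω) ^ 2 ∂Qm ≤ C / (N : ℝ) ^ 2 := by
    filter_upwards [eventually_gt_atTop 0] with N hN
    rw [(int_zz ((eg_ctp p N).pow 2)).2]
    exact h N hN
  exact ae_tendsto_of_int_sq (fun N ω => ctp p N (zz N ω)) h1 h2 (fun N : ℕ => C / (N : ℝ) ^ 2)
    h3 h4

theorem ae_tp_Sp (p : ℕ) : ∀ᵐ ω ∂Qm,
    Tendsto (fun N => tp N (Sp p) (zz N ω)) atTop (𝓝 (Lam (Sp p))) := by
  filter_upwards [ae_ctp p] with ω hω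
  have h2 := hω.add (Lam_spec (Sp p)).int
  simp only [ctp, sub_add_cancel, zero_add] at h2
  exact h2

/-- (L4) almost surely all the normalized traces converge -/
theorem ae_tp : ∀ᵐ ω ∂Qm, ∀ q : ℝ[X],
    Tendsto (fun N => tp N q (zz N ω)) atTop (𝓝 (Lam q)) := by
  have h : ∀ᵐ ω ∂Qm, ∀ p, Tendsto (fun N => tp N (Sp p) (zz N ω)) atTop (𝓝 (Lam (Sp p))) :=
    ae_all_iff.2 ae_tp_Sp
  filter_upwards [h] with ω hω q
  have hq := mem_span_Sp q
  induction hq using Submodule.span_induction with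
  | mem x hx =>
    obtain ⟨p, rfl⟩ := hx
    exact hω p
  | zero =>
    have h0 : Lam 0 = 0 := by
      have := Lam_C_mul 0 0
      simpa using this
    have h1 : (fun N => tp N 0 (zz N ω)) = fun _ => (0 : ℝ) := by
      funext N
      simp [tp]
    rw [h0, h1]
    exact tendsto_const_nhds
  | add x y _ _ hx hy =>
    rw [Lam_add]
    refine (hx.add hy).congr fun N => ?_
    rw [tp_add]
  | smul c x _ hx =>
    rw [smul_eq_C_mul, Lam_C_mul]
    refine (hx.const_mul c).congr fun N => ?_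
    rw [tp_C_mul]

/-- Weierstrass -/
theorem weak_of_moments {Λ : (N : ℕ) → Fin N → ℝ} {ν : Measure ℝ} [IsProbabilityMeasure ν]
    {R : ℝ} (hν : ∀ᵐ x ∂ν, x ∈ Set.Icc (-R) R) (hb : ∀ᶠ N in atTop, ∀ i, |Λ N i| ≤ R)
    (hm : ∀ q : ℝ[X], Tendsto (fun N : ℕ => (1 / (N : ℝ)) * ∑ i, q.eval (Λ N i)) atTop
      (𝓝 (∫ x, q.eval x ∂ν))) {f : ℝ → ℝ} (hf : Continuous f) :
    Tendsto (fun N : ℕ => (1 / (N : ℝ)) * ∑ i, f (Λ N i)) atTop (𝓝 (∫ x, f x ∂ν)) := by
  rw [Metric.tendsto_atTop]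
  intro ε hε
  obtain ⟨q, hq⟩ := exists_polynomial_near_of_continuousOn (-R) R f hf.continuousOn (ε / 3)
    (by positivity)
  have hint : ∀ g : ℝ → ℝ, Continuous g → Integrable g ν := by
    intro g hg
    obtain ⟨C, hC⟩ := isCompact_Icc.exists_bound_of_continuousOn (s := Set.Icc (-R) R)
      hg.continuousOn
    refine Integrable.mono' (integrable_const C) hg.aestronglyMeasurable ?_
    filter_upwards [hν] with x hx
    exact hC x hx
  have h1 : |∫ x, q.eval x ∂ν - ∫ x, f x ∂ν| ≤ ε / 3 := by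
    rw [← integral_sub (hint _ q.continuous) (hint _ hf)]
    refine (abs_integral_le_integral_abs).trans ?_
    have h2 : ∫ x, |q.eval x - f x| ∂ν ≤ ∫ _, ε / 3 ∂ν := by
      refine integral_mono_ae (hint _ (q.continuous.sub hf).abs) (integrable_const _) ?_
      filter_upwards [hν] with x hx
      exact (hq x hx).le
    simpa using h2
  obtain ⟨M, hM⟩ := eventually_atTop.1 (hb.and
    ((Metric.tendsto_nhds.1 (hm q) (ε / 3) (by positivity)).and (eventually_gt_atTop 0)))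
  refine ⟨M, fun N hN => ?_⟩
  obtain ⟨h2, h3, h4⟩ := hM N hN
  have hN0 : (0 : ℝ) < N := by exact_mod_cast h4
  have h5 : |(1 / (N : ℝ)) * ∑ i, f (Λ N i) - (1 / (N : ℝ)) * ∑ i, q.eval (Λ N i)| ≤ ε / 3 := by
    rw [← mul_sub, ← Finset.sum_sub_distrib, abs_mul, abs_of_pos (by positivity)]
    have h6 : |∑ i, (f (Λ N i) - q.eval (Λ N i))| ≤ ∑ _i : Fin N, ε / 3 := by
      refine (Finset.abs_sum_le_sum_abs _ _).trans (Finset.sum_le_sum fun i _ => ?_)
      rw [abs_sub_comm]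
      exact (hq _ (abs_le.1 (h2 i))).le
    rw [Finset.sum_const, Finset.card_univ, Fintype.card_fin, nsmul_eq_mul] at h6
    calc 1 / (N : ℝ) * |∑ i, (f (Λ N i) - q.eval (Λ N i))| ≤ 1 / (N : ℝ) * (N * (ε / 3)) :=
          mul_le_mul_of_nonneg_left h6 (by positivity)
      _ = ε / 3 := by field_simp
  rw [Real.dist_eq] at h3 ⊢
  have e : (1 / (N : ℝ)) * ∑ i, f (Λ N i) - ∫ x, f x ∂ν =
      ((1 / (N : ℝ)) * ∑ i, f (Λ N i) - (1 / (N : ℝ)) * ∑ i, q.eval (Λ N i)) +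
      ((1 / (N : ℝ)) * ∑ i, q.eval (Λ N i) - ∫ x, q.eval x ∂ν) +
      (∫ x, q.eval x ∂ν - ∫ x, f x ∂ν) := by ring
  rw [e]
  have h7 := abs_add_three ((1 / (N : ℝ)) * ∑ i, f (Λ N i) - (1 / (N : ℝ)) * ∑ i, q.eval (Λ N i))
    ((1 / (N : ℝ)) * ∑ i, q.eval (Λ N i) - ∫ x, q.eval x ∂ν)
    (∫ x, q.eval x ∂ν - ∫ x, f x ∂ν)
  linarith

/-- convergence of the smallest eigenvalue -/
theorem inf_conv {Λ : (N : ℕ) → Fin N → ℝ} {μ : Measure ℝ} [IsFiniteMeasure μ]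
    (hw : ∀ f : BoundedContinuousFunction ℝ ℝ,
      Tendsto (fun N : ℕ => (1 / (N : ℝ)) * ∑ i, f (Λ N i)) atTop (𝓝 (∫ x, f x ∂μ)))
    {m : ℝ} (hm : m ∈ μ.support)
    (hl : ∀ ε : ℝ, 0 < ε → ∀ᶠ N in atTop, ∀ i, m - ε ≤ Λ N i) :
    Tendsto (fun N : ℕ => ⨅ i, Λ N i) atTop (𝓝 m) := by
  rw [Metric.tendsto_atTop]
  intro ε hε
  let g : ℝ → ℝ := fun x => max 0 (min 1 (m + ε - x))
  have hg : Continuous g := by fun_prop
  have hg0 : ∀ x, 0 ≤ g x := fun x => le_max_left _ _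
  have hg1 : ∀ x, |g x| ≤ 1 := fun x => by
    rw [abs_of_nonneg (hg0 x)]
    exact max_le zero_le_one (min_le_left _ _)
  have hgp : ∀ x, 0 < g x ↔ x < m + ε := fun x => by
    simp only [g, lt_max_iff, lt_irrefl, false_or, lt_min_iff, zero_lt_one, true_and, sub_pos]
  let f : BoundedContinuousFunction ℝ ℝ := BoundedContinuousFunction.ofNormedAddCommGroup g hg 1
    fun x => hg1 x
  have hint : Integrable g μ := f.integrable μ
  have h1 : 0 < ∫ x, f x ∂μ := by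
    refine (integral_pos_iff_support_of_nonneg (f := g) hg0 hint).2 ?_
    refine lt_of_lt_of_le (Measure.mem_support_iff_forall m |>.1 hm (Set.Iio (m + ε))
      (Iio_mem_nhds (by linarith))) (measure_mono fun x hx => ?_)
    exact ((hgp x).2 hx).ne'
  obtain ⟨M, hM⟩ := eventually_atTop.1 (((hw f).eventually_const_lt h1).and
    ((hl (ε / 2) (by positivity)).and (eventually_gt_atTop 0)))
  refine ⟨M, fun N hN => ?_⟩
  obtain ⟨h2, h3, h4⟩ := hM N hN
  have : Nonempty (Fin N) := ⟨⟨0, h4⟩⟩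
  have h5 : m - ε / 2 ≤ ⨅ i, Λ N i := le_ciInf h3
  have h6 : ∃ i, 0 < g (Λ N i) := by
    by_contra h7
    push Not at h7
    have h8 : ∑ i, f (Λ N i) ≤ 0 := Finset.sum_nonpos fun i _ => h7 i
    have h9 : (1 / (N : ℝ)) * ∑ i, f (Λ N i) ≤ 0 :=
      mul_nonpos_of_nonneg_of_nonpos (by positivity) h8
    linarith
  obtain ⟨i, hi⟩ := h6
  have h7 := (hgp _).1 hi
  have h8 : ⨅ i, Λ N i ≤ Λ N i := ciInf_le (Set.finite_range _).bddBelow i
  rw [Real.dist_eq, abs_lt]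
  constructor <;> linarith

/-- convergence of the largest eigenvalue -/
theorem sup_conv {Λ : (N : ℕ) → Fin N → ℝ} {μ : Measure ℝ} [IsFiniteMeasure μ]
    (hw : ∀ f : BoundedContinuousFunction ℝ ℝ,
      Tendsto (fun N : ℕ => (1 / (N : ℝ)) * ∑ i, f (Λ N i)) atTop (𝓝 (∫ x, f x ∂μ)))
    {m : ℝ} (hm : m ∈ μ.support)
    (hl : ∀ ε : ℝ, 0 < ε → ∀ᶠ N in atTop, ∀ i, Λ N i ≤ m + ε) :
    Tendsto (fun N : ℕ => ⨆ i, Λ N i) atTop (𝓝 m) := by
  rw [Metric.tendsto_atTop]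
  intro ε hε
  let g : ℝ → ℝ := fun x => max 0 (min 1 (x - (m - ε)))
  have hg : Continuous g := by fun_prop
  have hg0 : ∀ x, 0 ≤ g x := fun x => le_max_left _ _
  have hg1 : ∀ x, |g x| ≤ 1 := fun x => by
    rw [abs_of_nonneg (hg0 x)]
    exact max_le zero_le_one (min_le_left _ _)
  have hgp : ∀ x, 0 < g x ↔ m - ε < x := fun x => by
    simp only [g, lt_max_iff, lt_irrefl, false_or, lt_min_iff, zero_lt_one, true_and, sub_pos]
  let f : BoundedContinuousFunction ℝ ℝ := BoundedContinuousFunction.ofNormedAddCommGroup g hg 1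
    fun x => hg1 x
  have hint : Integrable g μ := f.integrable μ
  have h1 : 0 < ∫ x, f x ∂μ := by
    refine (integral_pos_iff_support_of_nonneg (f := g) hg0 hint).2 ?_
    refine lt_of_lt_of_le (Measure.mem_support_iff_forall m |>.1 hm (Set.Ioi (m - ε))
      (Ioi_mem_nhds (by linarith))) (measure_mono fun x hx => ?_)
    exact ((hgp x).2 hx).ne'
  obtain ⟨M, hM⟩ := eventually_atTop.1 (((hw f).eventually_const_lt h1).and
    ((hl (ε / 2) (by positivity)).and (eventually_gt_atTop 0)))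
  refine ⟨M, fun N hN => ?_⟩
  obtain ⟨h2, h3, h4⟩ := hM N hN
  have : Nonempty (Fin N) := ⟨⟨0, h4⟩⟩
  have h5 : ⨆ i, Λ N i ≤ m + ε / 2 := ciSup_le h3
  have h6 : ∃ i, 0 < g (Λ N i) := by
    by_contra h7
    push Not at h7
    have h8 : ∑ i, f (Λ N i) ≤ 0 := Finset.sum_nonpos fun i _ => h7 i
    have h9 : (1 / (N : ℝ)) * ∑ i, f (Λ N i) ≤ 0 :=
      mul_nonpos_of_nonneg_of_nonpos (by positivity) h8
    linarith
  obtain ⟨i, hi⟩ := h6
  have h7 := (hgp _).1 hi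
  have h8 : Λ N i ≤ ⨆ i, Λ N i := le_ciSup (Set.finite_range _).bddAbove i
  rw [Real.dist_eq, abs_lt]
  constructor <;> linarith

end Vale.Agent.P146.R3.H432
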