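import Vale.Agent.P146.R3.H432.Arr
import Vale.Agent.P146.R2.H432.Mom
import Vale.Agent.P146.Bdl.B9

/-!
# P146: almost sure bounds of the norms of `W` (with and without diagonal)
-/

open MeasureTheory ProbabilityTheory Matrix Filter Topology Polynomial
open scoped Matrix.Norms.L2Operator

namespace Vale.Agent.P146.R3.H432

open Vale.Agent.P146.Sk Vale.Agent.P157.Lv Vale.Agent.P146.R2.H432

/-- almost sure convergence to `0` from summable second moments -/
theorem ae_tendsto_of_int_sq {Ω : Type*} [MeasurableSpace Ω] {μ : Measure Ω}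
    (f : ℕ → Ω → ℝ) (hf : ∀ N, Measurable (f N)) (hi : ∀ N, Integrable (fun ω => f N ω ^ 2) μ)
    (b : ℕ → ℝ) (hb : Summable b) (hfb : ∀ᶠ N in atTop, ∫ ω, f N ω ^ 2 ∂μ ≤ b N) :
    ∀ᵐ ω ∂μ, Tendsto (fun N => f N ω) atTop (𝓝 0) := by
  obtain ⟨N₀, hN₀⟩ := eventually_atTop.1 hfb
  have h1 : ∀ N, ∫⁻ ω, ENNReal.ofReal (f (N + N₀) ω ^ 2) ∂μ ≤ ENNReal.ofReal (b (N + N₀)) := by
    intro N
    rw [← ofReal_integral_eq_lintegral_ofReal (hi _) (Eventually.of_forall fun ω => sq_nonneg _)]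
    exact ENNReal.ofReal_le_ofReal (hN₀ _ (Nat.le_add_left _ _))
  have hb' : Summable fun N => b (N + N₀) := (summable_nat_add_iff N₀).2 hb
  have hb0 : ∀ N, 0 ≤ b (N + N₀) := fun N =>
    le_trans (integral_nonneg fun ω => sq_nonneg _) (hN₀ _ (Nat.le_add_left _ _))
  have h2 : ∫⁻ ω, ∑' N, ENNReal.ofReal (f (N + N₀) ω ^ 2) ∂μ ≠ ⊤ := by
    rw [lintegral_tsum fun N => ((hf _).pow_const 2).ennreal_ofReal.aemeasurable]
    refine ne_top_of_le_ne_top ?_ (ENNReal.tsum_le_tsum h1)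
    rw [← ENNReal.ofReal_tsum_of_nonneg hb0 hb']
    exact ENNReal.ofReal_ne_top
  have h3 := ae_lt_top' (AEMeasurable.tsum fun N =>
    ((hf (N + N₀)).pow_const 2).ennreal_ofReal.aemeasurable) h2
  filter_upwards [h3] with ω hω
  have h4 := ENNReal.tendsto_atTop_zero_of_tsum_ne_top hω.ne
  have h5 : Tendsto (fun N => f (N + N₀) ω ^ 2) atTop (𝓝 0) := by
    have h6 := (ENNReal.continuousAt_toReal ENNReal.zero_ne_top).tendsto.comp h4
    simpa [Function.comp_def, ENNReal.toReal_ofReal (sq_nonneg _)] using h6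
  have h7 : Tendsto (fun N => f N ω ^ 2) atTop (𝓝 0) := (tendsto_add_atTop_iff_nat N₀).1 h5
  have h8 := (Real.continuous_sqrt.tendsto 0).comp h7
  rw [Real.sqrt_zero] at h8
  simp only [Function.comp_def, Real.sqrt_sq_eq_abs] at h8
  exact tendsto_zero_iff_abs_tendsto_zero _ |>.2 h8

/-- Borel-Cantelli for events that depend on the restriction -/
theorem ae_eventually_not_mem {X : ℕ → Type*} [∀ N, MeasurableSpace (X N)]
    (φ : ∀ N, Om → X N) (hφ : ∀ N, Measurable (φ N)) (B : ∀ N, Set (X N))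
    (hB : ∀ N, MeasurableSet (B N)) (b : ℕ → ℝ) (hb : Summable b)
    (h : ∀ᶠ N in atTop, ((Qm.map (φ N)).real (B N)) ≤ b N) :
    ∀ᵐ ω ∂Qm, ∀ᶠ N in atTop, φ N ω ∉ B N := by
  obtain ⟨N₀, hN₀⟩ := eventually_atTop.1 h
  have hb' : Summable fun N => b (N + N₀) := (summable_nat_add_iff N₀).2 hb
  have hb0 : ∀ N, 0 ≤ b (N + N₀) := fun N =>
    le_trans measureReal_nonneg (hN₀ _ (Nat.le_add_left _ _))
  have h1 : ∑' N, Qm {ω | φ (N + N₀) ω ∈ B (N + N₀)} ≠ ⊤ := by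
    have h2 : ∀ N, Qm {ω | φ (N + N₀) ω ∈ B (N + N₀)} ≤ ENNReal.ofReal (b (N + N₀)) := by
      intro N
      have h3 := hN₀ _ (Nat.le_add_left N₀ N)
      have h4 : Qm {ω | φ (N + N₀) ω ∈ B (N + N₀)} = (Qm.map (φ (N + N₀))) (B (N + N₀)) := by
        rw [Measure.map_apply (hφ _) (hB _)]
        rfl
      have : IsProbabilityMeasure (Qm.map (φ (N + N₀))) :=
        Measure.isProbabilityMeasure_map (hφ _).aemeasurable
      rw [h4]
      refine (ENNReal.le_ofReal_iff_toReal_le (measure_ne_top _ _) (hb0 N)).2 h3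
    refine ne_top_of_le_ne_top ?_ (ENNReal.tsum_le_tsum h2)
    rw [← ENNReal.ofReal_tsum_of_nonneg hb0 hb']
    exact ENNReal.ofReal_ne_top
  have h5 := ae_eventually_notMem h1
  filter_upwards [h5] with ω hω
  obtain ⟨M, hM⟩ := eventually_atTop.1 hω
  refine eventually_atTop.2 ⟨M + N₀, fun N hN => ?_⟩
  have h6 := hM (N - N₀) (by omega)
  have h7 : N - N₀ + N₀ = N := by omega
  rw [h7] at h6
  exact h6

/-- the operator norm from the bound of squares -/
lemma norm_le_of_opLe {N : ℕ} {A : Matrix (Fin N) (Fin N) ℝ} {C : ℝ} (hC : 0 ≤ C)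
    (h : ∀ v : Fin N → ℝ, ∑ i, (A.mulVec v) i ^ 2 ≤ C ^ 2 * ∑ i, v i ^ 2) : ‖A‖ ≤ C := by
  rw [Matrix.l2_opNorm_def]
  refine ContinuousLinearMap.opNorm_le_bound _ hC fun v => ?_
  have h1 := h (WithLp.ofLp v)
  have e1 : ‖((Matrix.toEuclideanLin (𝕜 := ℝ) (m := Fin N) (n := Fin N)).trans
      LinearMap.toContinuousLinearMap) A v‖ ^ 2 = ∑ i, (A.mulVec (WithLp.ofLp v)) i ^ 2 := by
    rw [EuclideanSpace.norm_sq_eq]
    refine Finset.sum_congr rfl fun i _ => ?_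
    rw [Real.norm_eq_abs, sq_abs]
    rfl
  have e2 : ‖v‖ ^ 2 = ∑ i, (WithLp.ofLp v) i ^ 2 := by
    rw [EuclideanSpace.norm_sq_eq]
    refine Finset.sum_congr rfl fun i _ => ?_
    rw [Real.norm_eq_abs, sq_abs]
  refine le_of_sq_le_sq ?_ (by positivity)
  rw [mul_pow, e1, e2]
  exact h1

lemma exp_summable {c : ℝ} (hc : 0 < c) :
    Summable fun n : ℕ => 10 * n * Real.exp (-(c * n)) := by
  have h1 := Real.summable_pow_mul_exp_neg_nat_mul 1 hc
  refine (h1.mul_left 10).congr fun n => ?_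
  rw [pow_one]
  ring_nf

/-- the matrix without diagonal has norm at most `2 + ε` -/
theorem ae_norm_WW {ε : ℝ} (hε : 0 < ε) : ∀ᵐ ω ∂Qm, ∀ᶠ N in atTop, ‖WW (gg N ω)‖ ≤ 2 + ε := by
  obtain ⟨δ, hδ⟩ : ∃ δ, δ = min ε 1 := ⟨_, rfl⟩
  have hδ0 : 0 < δ := by rw [hδ]; exact lt_min hε one_pos
  have hδ1 : δ ≤ 1 := by rw [hδ]; exact min_le_right _ _
  have hδε : δ ≤ ε := by rw [hδ]; exact min_le_left _ _
  -- choose `q` with `q + q⁻¹ = 2 + δ`
  obtain ⟨q, hq⟩ : ∃ q, q = 1 + δ / 2 + √(δ + δ ^ 2 / 4) := ⟨_, rfl⟩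
  have hs : √(δ + δ ^ 2 / 4) ^ 2 = δ + δ ^ 2 / 4 := Real.sq_sqrt (by positivity)
  have hs0 : 0 < √(δ + δ ^ 2 / 4) := Real.sqrt_pos.2 (by positivity)
  have hq1 : 1 < q := by rw [hq]; linarith
  have hq0 : 0 < q := by linarith
  have hqq : q + q⁻¹ = 2 + δ := by
    have : q * q + 1 = (2 + δ) * q := by
      rw [hq]
      nlinarith [hs]
    field_simp
    linarith
  have h1 := ae_eventually_not_mem gg measurable_gg (fun N => BadQ N q)
    (fun N => measurable_BadQ N q) (fun n => 10 * n * Real.exp (-(δ ^ 2 / 256 * n)))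
    (exp_summable (by positivity)) ?_
  · filter_upwards [h1] with ω hω
    filter_upwards [hω] with N hN
    have h2 : Vale.Agent.P150.F.OpLe (WW (gg N ω)) (q + q⁻¹) := by
      by_contra hc
      exact hN hc
    rw [hqq] at h2
    exact (norm_le_of_opLe (by linarith) h2).trans (by linarith)
  · filter_upwards [eventually_gt_atTop 0] with N hN
    rw [map_gg]
    have h3 := badQ_le hN hq1 (by rw [hqq]; linarith)
    rw [hqq] at h3
    have h4 : 2 + δ - 2 = δ := by ring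
    rw [h4] at h3
    exact h3

end Vale.Agent.P146.R3.H432
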