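import Vale.Agent.P146.R3.H432.Mcv

/-!
# P146: polynomials of `W`: invariance and spectral decomposition
-/

open MeasureTheory ProbabilityTheory Matrix Filter Topology Polynomial
open scoped Matrix.Norms.L2Operator

namespace Vale.Agent.P146.R3.H432

open Vale.Agent.P146.Sk Vale.Agent.P157.Lv Vale.Agent.P146.R2.H432

section alg

variable {N : ℕ}

lemma orth_mul (O : orthogonalGroup (Fin N) ℝ) : O.1 * O.1ᵀ = 1 := by
  have := (Matrix.mem_orthogonalGroup_iff (Fin N) ℝ).1 O.2
  simpa [Matrix.star_eq_conjTranspose] using this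

lemma orth_mul' (O : orthogonalGroup (Fin N) ℝ) : O.1ᵀ * O.1 = 1 := by
  have := (Matrix.mem_orthogonalGroup_iff' (Fin N) ℝ).1 O.2
  simpa [Matrix.star_eq_conjTranspose] using this

/-- polynomials and conjugation by orthogonal matrices -/
theorem aeval_conj (O : orthogonalGroup (Fin N) ℝ) (A : Matrix (Fin N) (Fin N) ℝ) (p : ℝ[X]) :
    aeval (O.1ᵀ * A * O.1) p = O.1ᵀ * aeval A p * O.1 := by
  have hO := orth_mul O
  have hO' := orth_mul' O
  induction p using Polynomial.induction_on' with
  | add p q hp hq => rw [map_add, map_add, hp, hq, Matrix.mul_add, Matrix.add_mul]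
  | monomial n a =>
    rw [aeval_monomial, aeval_monomial, ← Algebra.smul_def, ← Algebra.smul_def]
    have h : (O.1ᵀ * A * O.1) ^ n = O.1ᵀ * A ^ n * O.1 := by
      induction n with
      | zero => rw [pow_zero, pow_zero, Matrix.mul_one, hO']
      | succ n ih =>
        rw [pow_succ, ih, pow_succ]
        calc O.1ᵀ * A ^ n * O.1 * (O.1ᵀ * A * O.1) =
            O.1ᵀ * A ^ n * (O.1 * O.1ᵀ) * A * O.1 := by simp only [Matrix.mul_assoc]
          _ = O.1ᵀ * (A ^ n * A) * O.1 := by
            rw [hO, Matrix.mul_one]; simp only [Matrix.mul_assoc]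
    rw [h, Matrix.mul_smul, Matrix.smul_mul]

lemma aeval_diagonal (d : Fin N → ℝ) (p : ℝ[X]) :
    aeval (Matrix.diagonal d) p = Matrix.diagonal fun i => p.eval (d i) := by
  induction p using Polynomial.induction_on' with
  | add p q hp hq =>
    rw [map_add, hp, hq, Matrix.diagonal_add]
    simp only [eval_add]
  | monomial n a =>
    rw [aeval_monomial, ← Algebra.smul_def, Matrix.diagonal_pow, ← Matrix.diagonal_smul]
    congr 1
    funext i
    simp [eval_monomial]

/-- spectral theorem for real symmetric matrices, with an orthogonal matrix -/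
theorem spec_real {A : Matrix (Fin N) (Fin N) ℝ} (hA : A.IsHermitian) :
    ∃ V : orthogonalGroup (Fin N) ℝ, A = V.1ᵀ * Matrix.diagonal hA.eigenvalues * V.1 := by
  have h1 := hA.spectral_theorem
  rw [Unitary.conjStarAlgAut_apply] at h1
  have h2 : (RCLike.ofReal ∘ hA.eigenvalues : Fin N → ℝ) = hA.eigenvalues := by
    funext i
    simp
  rw [h2] at h1
  let U : Matrix (Fin N) (Fin N) ℝ := (hA.eigenvectorUnitary : Matrix (Fin N) (Fin N) ℝ)
  have h3 : U * Uᵀ = 1 := by
    have := Unitary.coe_mul_star_self hA.eigenvectorUnitary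
    simpa [U, Matrix.star_eq_conjTranspose] using this
  refine ⟨⟨Uᵀ, ?_⟩, ?_⟩
  · rw [Matrix.mem_orthogonalGroup_iff']
    simpa [Matrix.star_eq_conjTranspose] using h3
  · simp only [Matrix.transpose_transpose]
    rw [Matrix.star_eq_conjTranspose, Matrix.conjTranspose_eq_transpose_of_trivial] at h1
    exact h1

theorem spec_poly (z : Ix N → ℝ) (p : ℝ[X]) :
    ∃ V : orthogonalGroup (Fin N) ℝ, aeval (Wm N z) p =
      V.1ᵀ * Matrix.diagonal (fun i => p.eval (ew N z i)) * V.1 := by
  obtain ⟨V, hV⟩ := spec_real (Wm_herm z)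
  refine ⟨V, ?_⟩
  have h : aeval (Wm N z) p = aeval (V.1ᵀ * Matrix.diagonal (Wm_herm z).eigenvalues * V.1) p := by
    rw [← hV]
  rw [h, aeval_conj, aeval_diagonal]
  rfl

/-- the eigenvalues are bounded by the norm -/
lemma ew_le_norm (z : Ix N → ℝ) (i : Fin N) : |ew N z i| ≤ ‖Wm N z‖ := by
  obtain ⟨V, hV⟩ := spec_real (Wm_herm z)
  have h1 : Matrix.diagonal (ew N z) = V.1 * Wm N z * V.1ᵀ := by
    have h2 : V.1 * Wm N z * V.1ᵀ =
        V.1 * (V.1ᵀ * Matrix.diagonal (Wm_herm z).eigenvalues * V.1) * V.1ᵀ := by rw [← hV]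
    rw [h2]
    calc Matrix.diagonal (ew N z) = 1 * Matrix.diagonal (ew N z) * 1 := by
          rw [Matrix.one_mul, Matrix.mul_one]
      _ = (V.1 * V.1ᵀ) * Matrix.diagonal (ew N z) * (V.1 * V.1ᵀ) := by rw [orth_mul]
      _ = _ := by simp only [Matrix.mul_assoc]; rfl
  have hV1 : ‖V.1‖ ≤ 1 := by
    have h := Matrix.l2_opNorm_conjTranspose_mul_self V.1
    rw [Matrix.conjTranspose_eq_transpose_of_trivial, orth_mul'] at h
    have h3 := norm_one_le (N := N)
    nlinarith [norm_nonneg V.1]
  have hV2 : ‖V.1ᵀ‖ ≤ 1 := by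
    rw [← Matrix.conjTranspose_eq_transpose_of_trivial, Matrix.l2_opNorm_conjTranspose]
    exact hV1
  have h4 : ‖Matrix.diagonal (ew N z)‖ ≤ ‖Wm N z‖ := by
    rw [h1]
    refine (norm_mul_le _ _).trans ?_
    have h5 := norm_mul_le V.1 (Wm N z)
    nlinarith [norm_nonneg (V.1 * Wm N z), norm_nonneg V.1ᵀ, norm_nonneg V.1,
      norm_nonneg (Wm N z)]
  rw [Matrix.l2_opNorm_diagonal] at h4
  exact (norm_le_pi_norm (ew N z) i).trans h4

end alg

/-- the entries of the polynomials of `W` are continuous functions of the array -/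
lemma continuous_aeval_Wm (N : ℕ) (p : ℝ[X]) : Continuous fun z : Ix N → ℝ => aeval (Wm N z) p := by
  have h1 : Continuous fun z : Ix N → ℝ => Wm N z := continuous_Wm
  induction p using Polynomial.induction_on' with
  | add p q hp hq =>
    simp only [map_add]
    exact hp.add hq
  | monomial n a =>
    simp only [aeval_monomial, ← Algebra.smul_def]
    have h2 : Continuous fun z : Ix N → ℝ => Wm N z ^ n := by
      induction n with
      | zero => simp only [pow_zero]; exact continuous_const
      | succ n ih =>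
        simp only [pow_succ]
        exact ih.matrix_mul h1
    exact h2.const_smul a

lemma measurable_entry (N : ℕ) (p : ℝ[X]) (i j : Fin N) :
    Measurable fun z : Ix N → ℝ => aeval (Wm N z) p i j := by
  have h := (continuous_aeval_Wm N p).matrix_elem i j
  exact h.measurable

/-- invariance in law -/
theorem invariant_poly (p : ℝ[X]) (N : ℕ) (O : orthogonalGroup (Fin N) ℝ) :
    Qm.map (fun ω i j => (O.1ᵀ * aeval (Wm N (zz N ω)) p * O.1) i j) =
      Qm.map (fun ω i j => aeval (Wm N (zz N ω)) p i j) := by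
  let F : (Ix N → ℝ) → (Fin N → Fin N → ℝ) := fun z i j => aeval (Wm N z) p i j
  have hF : Measurable F := measurable_pi_iff.2 fun i => measurable_pi_iff.2 fun j =>
    measurable_entry N p i j
  have h1 : (fun ω i j => (O.1ᵀ * aeval (Wm N (zz N ω)) p * O.1) i j) =
      F ∘ (cjL N O.1) ∘ zz N := by
    funext ω i j
    simp only [F, Function.comp_apply]
    rw [Wm_cj, aeval_conj]
  have h2 : (fun ω i j => aeval (Wm N (zz N ω)) p i j) = F ∘ zz N := rfl
  have hc : Measurable (cjL N O.1) := (cjL N O.1).continuous.measurable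
  rw [h1, h2, ← Measure.map_map hF (hc.comp (measurable_zz N)),
    ← Measure.map_map hc (measurable_zz N), map_zz, map_cj,
    ← Measure.map_map hF (measurable_zz N), map_zz]

end Vale.Agent.P146.R3.H432
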